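/-
helper66 — row 82 (S0109), package (D): the general limit passage.

This file fixes the two INTERFACES consumed by the limit passage:

* `DiscreteTheory K M C₁ pot lag` — the semi-discrete theorem "(DT)":
  a canonical potential `pot μ'` and Laguerre map `lag μ'` for every finitely supported
  probability measure `μ'` with atoms of norm `≤ M`, and the L²-stability of the potentials
  under ANY labelled coupling (repeats among the sites allowed).
* `InterpA K M C` — the interpolation inequality "(A)" for a.e. subgradient selections.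

`Crest/Agent/Helper66/OT/Main.lean` proves the statement of S0109 from these two.
-/
import Mathlib
import Crest.Prelude.Def_QuadraticTransport

set_option autoImplicit false
open MeasureTheory
open scoped ENNReal NNReal
open Crest.AnalysisR.OT

namespace Crest.Agent.Helper66.OT

/-- The finitely supported measure `∑ i, w i • δ_{y i}` of a labelled configuration with real
weights. Repeats among the `y i` are allowed. -/
noncomputable def discMeasure {d : ℕ} {ι : Type} [Fintype ι] (w : ι → ℝ)
    (y : ι → EuclideanSpace ℝ (Fin d)) : Measure (EuclideanSpace ℝ (Fin d)) :=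
  ∑ i, ENNReal.ofReal (w i) • Measure.dirac (y i)

/-- **(DT)** The semi-discrete theory for the uniform source on `K` and atoms of norm `≤ M`.

`pot μ'` / `lag μ'` are the (canonical) potential and transport map of the finitely supported
probability measure `μ'`; they are functions of the MEASURE (not of a labelling).

(a) For every labelled configuration `(w, y)` (positive weights summing to one, `‖y i‖ ≤ M`,
    repeats allowed), with `μ' = discMeasure w y`: `lag μ'` is measurable, pushes `ρ` to `μ'`,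
    is bounded by `M` on `K`, is a subgradient selection of `pot μ'` on `K`, and `pot μ'` has
    `ρ`-mean zero.
(b) For two labelled configurations `y, z` with the same weights:
    `∫ (pot μ' - pot ν')² dρ ≤ C₁ * ∑ i, w i * ‖y i - z i‖²`. -/
def DiscreteTheory {d : ℕ} (K : Set (EuclideanSpace ℝ (Fin d))) (M C₁ : ℝ)
    (pot : Measure (EuclideanSpace ℝ (Fin d)) → EuclideanSpace ℝ (Fin d) → ℝ)
    (lag : Measure (EuclideanSpace ℝ (Fin d)) → EuclideanSpace ℝ (Fin d) →
      EuclideanSpace ℝ (Fin d)) : Prop :=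
  (∀ (ι : Type) [Fintype ι] (w : ι → ℝ) (y : ι → EuclideanSpace ℝ (Fin d)),
      (∀ i, 0 < w i) → ∑ i, w i = 1 → (∀ i, ‖y i‖ ≤ M) →
      Measurable (lag (discMeasure w y)) ∧
      (uniformProbOn K).map (lag (discMeasure w y)) = discMeasure w y ∧
      (∀ x ∈ K, ‖lag (discMeasure w y) x‖ ≤ M) ∧
      (∀ x ∈ K, ∀ z ∈ K,
        pot (discMeasure w y) x + inner ℝ (lag (discMeasure w y) x) (z - x) ≤ pot (discMeasure w y) z) ∧
      ∫ x, pot (discMeasure w y) x ∂(uniformProbOn K) = 0) ∧
  (∀ (ι : Type) [Fintype ι] (w : ι → ℝ) (y z : ι → EuclideanSpace ℝ (Fin d)),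
      (∀ i, 0 < w i) → ∑ i, w i = 1 → (∀ i, ‖y i‖ ≤ M) → (∀ i, ‖z i‖ ≤ M) →
      ∫ x, (pot (discMeasure w y) x - pot (discMeasure w z) x) ^ 2 ∂(uniformProbOn K)
        ≤ C₁ * ∑ i, w i * ‖y i - z i‖ ^ 2)

/-- **(A)** Interpolation for a.e. subgradient selections on `K`: if `F`, `G` are measurable,
a.e. bounded by `M` on `K`, and a.e. subgradient selections (relative to `K`) of `f`, `g`, then
`∫_K ‖F - G‖² ≤ C * (∫_K (f - g)²)^(1/3)`. -/
def InterpA {d : ℕ} (K : Set (EuclideanSpace ℝ (Fin d))) (M C : ℝ) : Prop :=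
  ∀ (f g : EuclideanSpace ℝ (Fin d) → ℝ)
    (F G : EuclideanSpace ℝ (Fin d) → EuclideanSpace ℝ (Fin d)),
    ContinuousOn f K → ContinuousOn g K → Measurable F → Measurable G →
    (∀ᵐ x ∂(volume.restrict K), ‖F x‖ ≤ M) → (∀ᵐ x ∂(volume.restrict K), ‖G x‖ ≤ M) →
    (∀ᵐ x ∂(volume.restrict K), ∀ z ∈ K, f x + inner ℝ (F x) (z - x) ≤ f z) →
    (∀ᵐ x ∂(volume.restrict K), ∀ z ∈ K, g x + inner ℝ (G x) (z - x) ≤ g z) →
    ∫ x in K, ‖F x - G x‖ ^ 2 ≤ C * (∫ x in K, (f x - g x) ^ 2) ^ (1 / 3 : ℝ)

end Crest.Agent.Helper66.OT
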