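/-
helper66 — row 82 (S0109), package (D), leaf D6: coupling plumbing.
-/
import Crest.Agent.Helper66.OT.Interface

set_option autoImplicit false
open MeasureTheory Filter Topology
open scoped ENNReal NNReal
open Crest.AnalysisR.OT

namespace Crest.Agent.Helper66.OT

theorem coupling_prob {d : ℕ} (μ ν : Measure (EuclideanSpace ℝ (Fin d)))
    [IsProbabilityMeasure μ]
    (π : Measure (EuclideanSpace ℝ (Fin d) × EuclideanSpace ℝ (Fin d)))
    (hπ : IsPairCoupling μ ν π) : IsProbabilityMeasure π := by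
  constructor
  have h1 : μ Set.univ = 1 := measure_univ
  rw [← hπ.1, Measure.map_apply measurable_fst MeasurableSet.univ] at h1
  simpa using h1

theorem coupling_ae_mem {d : ℕ} (Y : Set (EuclideanSpace ℝ (Fin d))) (hYm : MeasurableSet Y)
    (μ ν : Measure (EuclideanSpace ℝ (Fin d))) (hμY : μ Yᶜ = 0) (hνY : ν Yᶜ = 0)
    (π : Measure (EuclideanSpace ℝ (Fin d) × EuclideanSpace ℝ (Fin d)))
    (hπ : IsPairCoupling μ ν π) : ∀ᵐ p ∂π, p.1 ∈ Y ∧ p.2 ∈ Y := by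
  have h1 : π (Prod.fst ⁻¹' Yᶜ) = 0 := by
    rw [← Measure.map_apply measurable_fst hYm.compl, hπ.1, hμY]
  have h2 : π (Prod.snd ⁻¹' Yᶜ) = 0 := by
    rw [← Measure.map_apply measurable_snd hYm.compl, hπ.2, hνY]
  have h1' : ∀ᵐ p ∂π, p ∉ Prod.fst ⁻¹' Yᶜ := measure_eq_zero_iff_ae_notMem.1 h1
  have h2' : ∀ᵐ p ∂π, p ∉ Prod.snd ⁻¹' Yᶜ := measure_eq_zero_iff_ae_notMem.1 h2
  filter_upwards [h1', h2'] with p hp1 hp2
  constructor
  · simpa using hp1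
  · simpa using hp2

theorem coupling_map_fst {d : ℕ} (μ ν : Measure (EuclideanSpace ℝ (Fin d)))
    (π : Measure (EuclideanSpace ℝ (Fin d) × EuclideanSpace ℝ (Fin d)))
    (hπ : IsPairCoupling μ ν π)
    (q : EuclideanSpace ℝ (Fin d) → EuclideanSpace ℝ (Fin d)) (hq : Measurable q) :
    π.map (fun p => q p.1) = μ.map q := by
  rw [← hπ.1, Measure.map_map hq measurable_fst]
  rfl

theorem coupling_map_snd {d : ℕ} (μ ν : Measure (EuclideanSpace ℝ (Fin d)))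
    (π : Measure (EuclideanSpace ℝ (Fin d) × EuclideanSpace ℝ (Fin d)))
    (hπ : IsPairCoupling μ ν π)
    (q : EuclideanSpace ℝ (Fin d) → EuclideanSpace ℝ (Fin d)) (hq : Measurable q) :
    π.map (fun p => q p.2) = ν.map q := by
  rw [← hπ.2, Measure.map_map hq measurable_snd]
  rfl

/-- Two quantisers with errors `ε`, `ε'` on `Y` are `(ε + ε')`-close in `L²(μ)`. -/
theorem cross_cost_le {d : ℕ} (μ : Measure (EuclideanSpace ℝ (Fin d))) [IsProbabilityMeasure μ]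
    (Y : Set (EuclideanSpace ℝ (Fin d))) (hμY : μ Yᶜ = 0)
    (q q' : SimpleFunc (EuclideanSpace ℝ (Fin d)) (EuclideanSpace ℝ (Fin d))) (ε ε' : ℝ)
    (hε : 0 ≤ ε) (hε' : 0 ≤ ε') (hq : ∀ y ∈ Y, dist (q y) y ≤ ε)
    (hq' : ∀ y ∈ Y, dist (q' y) y ≤ ε') :
    ∫ y, ‖q y - q' y‖ ^ 2 ∂μ ≤ (ε + ε') ^ 2 := by
  have hY : ∀ᵐ y ∂μ, y ∉ Yᶜ := measure_eq_zero_iff_ae_notMem.1 hμY
  have hb : ∀ᵐ y ∂μ, ‖q y - q' y‖ ^ 2 ≤ (ε + ε') ^ 2 := by
    filter_upwards [hY] with y hy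
    have hyY : y ∈ Y := by simpa using hy
    have h1 : ‖q y - q' y‖ ≤ ε + ε' := by
      calc ‖q y - q' y‖ = dist (q y) (q' y) := (dist_eq_norm _ _).symm
        _ ≤ dist (q y) y + dist y (q' y) := dist_triangle _ _ _
        _ ≤ ε + ε' := by
            rw [dist_comm y (q' y)]
            exact add_le_add (hq y hyY) (hq' y hyY)
    exact pow_le_pow_left₀ (norm_nonneg _) h1 2
  have hmeas : Measurable (fun y => ‖q y - q' y‖ ^ 2) :=
    (q.measurable.sub q'.measurable).norm.pow_const 2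
  have hint : Integrable (fun y => ‖q y - q' y‖ ^ 2) μ := by
    refine Integrable.of_bound hmeas.aestronglyMeasurable ((ε + ε') ^ 2) ?_
    filter_upwards [hb] with y hy
    rw [Real.norm_eq_abs, abs_of_nonneg (sq_nonneg _)]
    exact hy
  calc ∫ y, ‖q y - q' y‖ ^ 2 ∂μ ≤ ∫ _y, (ε + ε') ^ 2 ∂μ :=
        integral_mono_ae hint (integrable_const _) hb
    _ = (ε + ε') ^ 2 := by simp

/-- Quantising both marginals of a coupling increases the cost by at most `8 M ε + 4 ε²`. -/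
theorem pair_cost_le {d : ℕ} (Y : Set (EuclideanSpace ℝ (Fin d))) (hYm : MeasurableSet Y)
    (M : ℝ) (hM : ∀ y ∈ Y, ‖y‖ ≤ M)
    (μ ν : Measure (EuclideanSpace ℝ (Fin d))) [IsProbabilityMeasure μ] (hμY : μ Yᶜ = 0)
    (hνY : ν Yᶜ = 0)
    (π : Measure (EuclideanSpace ℝ (Fin d) × EuclideanSpace ℝ (Fin d)))
    (hπ : IsPairCoupling μ ν π)
    (q : SimpleFunc (EuclideanSpace ℝ (Fin d)) (EuclideanSpace ℝ (Fin d))) (ε : ℝ) (hε : 0 ≤ ε)
    (hq : ∀ y ∈ Y, dist (q y) y ≤ ε) :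
    ∫ p, ‖q p.1 - q p.2‖ ^ 2 ∂π ≤ ∫ p, ‖p.1 - p.2‖ ^ 2 ∂π + 8 * M * ε + 4 * ε ^ 2 := by
  have hprob : IsProbabilityMeasure π := coupling_prob μ ν π hπ
  have hY := coupling_ae_mem Y hYm μ ν hμY hνY π hπ
  -- pointwise bounds
  have hg : ∀ᵐ p ∂π, ‖p.1 - p.2‖ ≤ 2 * M := by
    filter_upwards [hY] with p hp
    calc ‖p.1 - p.2‖ ≤ ‖p.1‖ + ‖p.2‖ := norm_sub_le _ _
      _ ≤ 2 * M := by linarith [hM _ hp.1, hM _ hp.2]
  have hb : ∀ᵐ p ∂π, ‖q p.1 - q p.2‖ ^ 2 ≤ ‖p.1 - p.2‖ ^ 2 + (8 * M * ε + 4 * ε ^ 2) := by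
    filter_upwards [hY, hg] with p hp hp2
    have h1 : ‖q p.1 - q p.2‖ ≤ ‖p.1 - p.2‖ + 2 * ε := by
      calc ‖q p.1 - q p.2‖ = dist (q p.1) (q p.2) := (dist_eq_norm _ _).symm
        _ ≤ dist (q p.1) p.1 + dist p.1 (q p.2) := dist_triangle _ _ _
        _ ≤ dist (q p.1) p.1 + (dist p.1 p.2 + dist p.2 (q p.2)) := by
            gcongr
            exact dist_triangle _ _ _
        _ ≤ ε + (‖p.1 - p.2‖ + ε) := by
            rw [dist_comm p.2 (q p.2), dist_eq_norm p.1 p.2]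
            exact add_le_add (hq _ hp.1) (add_le_add le_rfl (hq _ hp.2))
        _ = ‖p.1 - p.2‖ + 2 * ε := by ring
    have h2 : ‖q p.1 - q p.2‖ ^ 2 ≤ (‖p.1 - p.2‖ + 2 * ε) ^ 2 :=
      pow_le_pow_left₀ (norm_nonneg _) h1 2
    have h3 : 0 ≤ ‖p.1 - p.2‖ := norm_nonneg _
    nlinarith [mul_le_mul_of_nonneg_left hp2 hε]
  have hmeas1 : Measurable (fun p : EuclideanSpace ℝ (Fin d) × EuclideanSpace ℝ (Fin d) =>
      ‖p.1 - p.2‖ ^ 2) := (measurable_fst.sub measurable_snd).norm.pow_const 2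
  have hmeas2 : Measurable (fun p : EuclideanSpace ℝ (Fin d) × EuclideanSpace ℝ (Fin d) =>
      ‖q p.1 - q p.2‖ ^ 2) :=
    ((q.measurable.comp measurable_fst).sub (q.measurable.comp measurable_snd)).norm.pow_const 2
  have hint1 : Integrable (fun p : EuclideanSpace ℝ (Fin d) × EuclideanSpace ℝ (Fin d) =>
      ‖p.1 - p.2‖ ^ 2) π := by
    refine Integrable.of_bound hmeas1.aestronglyMeasurable ((2 * M) ^ 2) ?_
    filter_upwards [hg] with p hp
    rw [Real.norm_eq_abs, abs_of_nonneg (sq_nonneg _)]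
    exact pow_le_pow_left₀ (norm_nonneg _) hp 2
  have hint2 : Integrable (fun p : EuclideanSpace ℝ (Fin d) × EuclideanSpace ℝ (Fin d) =>
      ‖q p.1 - q p.2‖ ^ 2) π := by
    refine Integrable.of_bound hmeas2.aestronglyMeasurable
      ((2 * M) ^ 2 + (8 * M * ε + 4 * ε ^ 2)) ?_
    filter_upwards [hb, hg] with p hp hp2
    rw [Real.norm_eq_abs, abs_of_nonneg (sq_nonneg _)]
    exact hp.trans (add_le_add (pow_le_pow_left₀ (norm_nonneg _) hp2 2) le_rfl)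
  calc ∫ p, ‖q p.1 - q p.2‖ ^ 2 ∂π
      ≤ ∫ p, (‖p.1 - p.2‖ ^ 2 + (8 * M * ε + 4 * ε ^ 2)) ∂π :=
        integral_mono_ae hint2 (hint1.add (integrable_const _)) hb
    _ = ∫ p, ‖p.1 - p.2‖ ^ 2 ∂π + 8 * M * ε + 4 * ε ^ 2 := by
        rw [integral_add hint1 (integrable_const _)]
        simp
        ring

/-- The real quadratic cost of a coupling is the `toReal` of `quadCost`. -/
theorem integral_sq_eq_quadCost_toReal {d : ℕ}
    (π : Measure (EuclideanSpace ℝ (Fin d) × EuclideanSpace ℝ (Fin d))) :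
    ∫ p, ‖p.1 - p.2‖ ^ 2 ∂π = (quadCost π).toReal := by
  have hmeas : Measurable (fun p : EuclideanSpace ℝ (Fin d) × EuclideanSpace ℝ (Fin d) =>
      ‖p.1 - p.2‖ ^ 2) := (measurable_fst.sub measurable_snd).norm.pow_const 2
  rw [integral_eq_lintegral_of_nonneg_ae (Eventually.of_forall fun p => sq_nonneg _)
    hmeas.aestronglyMeasurable]
  congr 1
  show _ = ∫⁻ p, ‖p.1 - p.2‖ₑ ^ 2 ∂π
  refine lintegral_congr fun p => ?_
  rw [ENNReal.ofReal_pow (norm_nonneg _), ofReal_norm]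

end Crest.Agent.Helper66.OT
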