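/-
helper66 — row 82 (S0109), package (D), part 1:
the discrete theory `DiscreteTheory` restated for push-forwards under simple functions.
-/
import Crest.Agent.Helper66.OT.Interface

set_option autoImplicit false
open MeasureTheory
open scoped ENNReal NNReal
open Crest.AnalysisR.OT

namespace Crest.Agent.Helper66.OT

/-- Push-forward of a measure under `g ∘ h`, `h` a simple function: a finite sum of Dirac
masses labelled by the range of `h`. -/
theorem map_comp_simpleFunc {Ω β F : Type*} [MeasurableSpace Ω] [MeasurableSpace β]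
    [MeasurableSpace F] (γ : Measure Ω) (h : SimpleFunc Ω β) (g : β → F) :
    γ.map (fun ω => g (h ω)) = ∑ p ∈ h.range, γ (h ⁻¹' {p}) • Measure.dirac (g p) := by
  classical
  have hmeas : Measurable (fun ω => g (h ω)) := (h.map g).measurable
  ext s hs
  rw [Measure.map_apply hmeas hs, Measure.coe_finsetSum, Finset.sum_apply]
  have hpre : (fun ω => g (h ω)) ⁻¹' s = h ⁻¹' ↑(h.range.filter (fun p => g p ∈ s)) := by
    ext ω
    simp
  rw [hpre, ← h.sum_measure_preimage_singleton, Finset.sum_filter]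
  refine Finset.sum_congr rfl fun p _ => ?_
  rw [Measure.smul_apply, Measure.dirac_apply' _ hs]
  by_cases hp : g p ∈ s
  · simp [hp]
  · simp [hp]

open Classical in
/-- A finite sum of Dirac masses with finite `ℝ≥0∞` weights, as a `discMeasure` with positive
real weights (labels of weight zero are dropped). -/
theorem sum_dirac_eq_discMeasure {d : ℕ} {β : Type} (S : Finset β) (m : β → ℝ≥0∞)
    (hm : ∀ p ∈ S, m p ≠ ∞) (g : β → EuclideanSpace ℝ (Fin d)) :
    ∑ p ∈ S, m p • Measure.dirac (g p) =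
      discMeasure (ι := ↥(S.filter (fun p => m p ≠ 0))) (fun i => (m i.1).toReal)
        (fun i => g i.1) := by
  unfold discMeasure
  rw [Finset.sum_coe_sort (S.filter (fun p => m p ≠ 0))
    (fun p => ENNReal.ofReal (m p).toReal • Measure.dirac (g p)), Finset.sum_filter]
  refine Finset.sum_congr rfl fun p hp => ?_
  by_cases h0 : m p = 0
  · simp [h0]
  · simp [h0, ENNReal.ofReal_toReal (hm p hp)]

section
variable {d : ℕ} {K : Set (EuclideanSpace ℝ (Fin d))} {M C₁ : ℝ}
  {pot : Measure (EuclideanSpace ℝ (Fin d)) → EuclideanSpace ℝ (Fin d) → ℝ}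
  {lag : Measure (EuclideanSpace ℝ (Fin d)) → EuclideanSpace ℝ (Fin d) →
    EuclideanSpace ℝ (Fin d)}

open Classical in
/-- Labelled form of the push-forward of a probability measure under `g ∘ h`. -/
theorem map_comp_simpleFunc_eq_discMeasure {Ω : Type*} {β : Type} [MeasurableSpace Ω]
    [MeasurableSpace β] (γ : Measure Ω) [IsProbabilityMeasure γ] (h : SimpleFunc Ω β)
    (g : β → EuclideanSpace ℝ (Fin d)) :
    γ.map (fun ω => g (h ω)) =
      discMeasure (ι := ↥(h.range.filter (fun p => γ (h ⁻¹' {p}) ≠ 0)))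
        (fun i => (γ (h ⁻¹' {i.1})).toReal) (fun i => g i.1) := by
  rw [map_comp_simpleFunc γ h g]
  exact sum_dirac_eq_discMeasure h.range (fun p => γ (h ⁻¹' {p}))
    (fun p _ => measure_ne_top γ _) g

open Classical in
theorem weights_pos {Ω : Type*} {β : Type} [MeasurableSpace Ω]
    [MeasurableSpace β] (γ : Measure Ω) [IsProbabilityMeasure γ] (h : SimpleFunc Ω β)
    (i : ↥(h.range.filter (fun p => γ (h ⁻¹' {p}) ≠ 0))) :
    0 < (γ (h ⁻¹' {i.1})).toReal := by
  have hi := (Finset.mem_filter.1 i.2).2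
  exact ENNReal.toReal_pos hi (measure_ne_top γ _)

open Classical in
theorem weights_sum {Ω : Type*} {β : Type} [MeasurableSpace Ω]
    [MeasurableSpace β] (γ : Measure Ω) [IsProbabilityMeasure γ] (h : SimpleFunc Ω β) :
    ∑ i : ↥(h.range.filter (fun p => γ (h ⁻¹' {p}) ≠ 0)), (γ (h ⁻¹' {i.1})).toReal = 1 := by
  rw [Finset.sum_coe_sort (h.range.filter (fun p => γ (h ⁻¹' {p}) ≠ 0))
    (fun p => (γ (h ⁻¹' {p})).toReal), Finset.sum_filter]
  have h1 : ∑ p ∈ h.range, (if γ (h ⁻¹' {p}) ≠ 0 then (γ (h ⁻¹' {p})).toReal else 0)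
      = ∑ p ∈ h.range, (γ (h ⁻¹' {p})).toReal := by
    refine Finset.sum_congr rfl fun p _ => ?_
    by_cases h0 : γ (h ⁻¹' {p}) = 0
    · simp [h0]
    · simp [h0]
  rw [h1, ← ENNReal.toReal_sum (fun p _ => measure_ne_top γ _),
    h.sum_range_measure_preimage_singleton, measure_univ, ENNReal.toReal_one]

/-- **(DT-a) for simple push-forwards.** -/
theorem DiscreteTheory.simple_props (hDT : DiscreteTheory K M C₁ pot lag) {Ω : Type*}
    [MeasurableSpace Ω] (γ : Measure Ω) [IsProbabilityMeasure γ]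
    (f : SimpleFunc Ω (EuclideanSpace ℝ (Fin d))) (hb : ∀ ω, ‖f ω‖ ≤ M) :
    Measurable (lag (γ.map f)) ∧
      (uniformProbOn K).map (lag (γ.map f)) = γ.map f ∧
      (∀ x ∈ K, ‖lag (γ.map f) x‖ ≤ M) ∧
      (∀ x ∈ K, ∀ z ∈ K,
        pot (γ.map f) x + inner ℝ (lag (γ.map f) x) (z - x) ≤ pot (γ.map f) z) ∧
      ∫ x, pot (γ.map f) x ∂(uniformProbOn K) = 0 := by
  classical
  have e : γ.map f = _ := map_comp_simpleFunc_eq_discMeasure γ f id
  have key := hDT.1 (↥(f.range.filter (fun p => γ (f ⁻¹' {p}) ≠ 0)))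
    (fun i => (γ (f ⁻¹' {i.1})).toReal) (fun i => id i.1) (weights_pos γ f) (weights_sum γ f)
    (fun i => by
      obtain ⟨ω, hω⟩ := SimpleFunc.mem_range.1 (Finset.mem_filter.1 i.2).1
      simpa [← hω] using hb ω)
  have e' : γ.map (⇑f) = discMeasure (ι := ↥(f.range.filter (fun p => γ (f ⁻¹' {p}) ≠ 0)))
      (fun i => (γ (f ⁻¹' {i.1})).toReal) (fun i => id i.1) := e
  rw [e']
  exact key

/-- **(DT-b) for simple couplings.** -/
theorem DiscreteTheory.simple_bound (hDT : DiscreteTheory K M C₁ pot lag) {Ω : Type*}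
    [MeasurableSpace Ω] (γ : Measure Ω) [IsProbabilityMeasure γ]
    (h : SimpleFunc Ω (EuclideanSpace ℝ (Fin d) × EuclideanSpace ℝ (Fin d)))
    (hb : ∀ ω, ‖(h ω).1‖ ≤ M ∧ ‖(h ω).2‖ ≤ M) :
    ∫ x, (pot (γ.map (fun ω => (h ω).1)) x - pot (γ.map (fun ω => (h ω).2)) x) ^ 2
        ∂(uniformProbOn K)
      ≤ C₁ * ∫ ω, ‖(h ω).1 - (h ω).2‖ ^ 2 ∂γ := by
  classical
  have e1 := map_comp_simpleFunc_eq_discMeasure γ h
    (Prod.fst : _ → EuclideanSpace ℝ (Fin d))
  have e2 := map_comp_simpleFunc_eq_discMeasure γ h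
    (Prod.snd : _ → EuclideanSpace ℝ (Fin d))
  have hrange : ∀ i : ↥(h.range.filter (fun p => γ (h ⁻¹' {p}) ≠ 0)),
      ‖(i.1).1‖ ≤ M ∧ ‖(i.1).2‖ ≤ M := by
    intro i
    obtain ⟨ω, hω⟩ := SimpleFunc.mem_range.1 (Finset.mem_filter.1 i.2).1
    simpa [← hω] using hb ω
  have key := hDT.2 (↥(h.range.filter (fun p => γ (h ⁻¹' {p}) ≠ 0)))
    (fun i => (γ (h ⁻¹' {i.1})).toReal) (fun i => (i.1).1) (fun i => (i.1).2) (weights_pos γ h)
    (weights_sum γ h) (fun i => (hrange i).1) (fun i => (hrange i).2)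
  rw [e1, e2]
  refine key.trans (le_of_eq ?_)
  congr 1
  -- the weighted sum is the integral of a simple function
  have hint : ∫ ω, ‖(h ω).1 - (h ω).2‖ ^ 2 ∂γ
      = (h.map (fun p : EuclideanSpace ℝ (Fin d) × EuclideanSpace ℝ (Fin d) =>
          ‖p.1 - p.2‖ ^ 2)).integral γ :=
    (SimpleFunc.integral_eq_integral
      (h.map (fun p : EuclideanSpace ℝ (Fin d) × EuclideanSpace ℝ (Fin d) => ‖p.1 - p.2‖ ^ 2))
      (SimpleFunc.integrable_of_isFiniteMeasure _)).symm
  rw [hint, SimpleFunc.map_integral h _ (SimpleFunc.integrable_of_isFiniteMeasure h)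
    (by simp)]
  rw [Finset.sum_coe_sort (h.range.filter (fun p => γ (h ⁻¹' {p}) ≠ 0))
    (fun p => (γ (h ⁻¹' {p})).toReal * ‖p.1 - p.2‖ ^ 2), Finset.sum_filter]
  refine Finset.sum_congr rfl fun p _ => ?_
  by_cases h0 : γ (h ⁻¹' {p}) = 0
  · simp [h0, Measure.real]
  · simp [h0, Measure.real]

end

end Crest.Agent.Helper66.OT
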