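/-
helper66 — row 82 (S0109), package (D), part 2:
quantisers of a compact set and basic facts on `uniformProbOn K`.
-/
import Crest.Agent.Helper66.OT.Interface

set_option autoImplicit false
open MeasureTheory
open scoped ENNReal NNReal
open Crest.AnalysisR.OT

namespace Crest.Agent.Helper66.OT

/-- A compact nonempty set has, for every `ε > 0`, a simple-function quantiser with values in the
set that moves no point of the set by more than `ε`. -/
theorem exists_quantiser {d : ℕ} (Y : Set (EuclideanSpace ℝ (Fin d))) (hYc : IsCompact Y)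
    (hYn : Y.Nonempty) (ε : ℝ) (hε : 0 < ε) :
    ∃ q : SimpleFunc (EuclideanSpace ℝ (Fin d)) (EuclideanSpace ℝ (Fin d)),
      (∀ x, q x ∈ Y) ∧ ∀ y ∈ Y, dist (q y) y ≤ ε := by
  obtain ⟨t, htY, htfin, hcov⟩ := hYc.finite_cover_balls hε
  have htne : t.Nonempty := by
    obtain ⟨y, hy⟩ := hYn
    have h1 := hcov hy
    simp only [Set.mem_iUnion] at h1
    obtain ⟨x, hx, _⟩ := h1
    exact ⟨x, hx⟩
  obtain ⟨e, he⟩ := htfin.countable.exists_eq_range htne
  have hk : ∀ x ∈ t, ∃ k, e k = x := fun x hx => by rw [he] at hx; exact hx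
  choose! k hk using hk
  refine ⟨SimpleFunc.nearestPt e (htfin.toFinset.sup k), fun x => ?_, fun y hy => ?_⟩
  · have h1 : SimpleFunc.nearestPt e (htfin.toFinset.sup k) x ∈ Set.range e := ⟨_, rfl⟩
    rw [← he] at h1
    exact htY h1
  · have h1 := hcov hy
    simp only [Set.mem_iUnion, Metric.mem_ball] at h1
    obtain ⟨x, hx, hxy⟩ := h1
    have hkN : k x ≤ htfin.toFinset.sup k := Finset.le_sup (f := k) (htfin.mem_toFinset.2 hx)
    have h2 := SimpleFunc.edist_nearestPt_le e y hkN
    rw [hk x hx, edist_dist, edist_dist] at h2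
    have h3 := (ENNReal.ofReal_le_ofReal_iff dist_nonneg).1 h2
    rw [dist_comm x y] at h3
    exact h3.trans hxy.le

section rho
variable {d : ℕ} {K : Set (EuclideanSpace ℝ (Fin d))}

theorem volK_ne_zero (hKi : (interior K).Nonempty) : volume K ≠ 0 :=
  (Measure.measure_pos_of_nonempty_interior volume hKi).ne'

theorem volK_ne_top (hKc : IsCompact K) : volume K ≠ ∞ := hKc.measure_lt_top.ne

theorem rho_prob (hKc : IsCompact K) (hKi : (interior K).Nonempty) :
    IsProbabilityMeasure (uniformProbOn K) := by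
  constructor
  unfold uniformProbOn
  rw [Measure.smul_apply, Measure.restrict_apply MeasurableSet.univ, Set.univ_inter,
    smul_eq_mul, ENNReal.inv_mul_cancel (volK_ne_zero hKi) (volK_ne_top hKc)]

theorem rho_ae_iff (hKc : IsCompact K) {p : EuclideanSpace ℝ (Fin d) → Prop} :
    (∀ᵐ x ∂(uniformProbOn K), p x) ↔ ∀ᵐ x ∂(volume.restrict K), p x := by
  unfold uniformProbOn
  exact Measure.ae_ennreal_smul_measure_iff (ENNReal.inv_ne_zero.2 (volK_ne_top hKc))

theorem rho_ae_mem (hKc : IsCompact K) : ∀ᵐ x ∂(uniformProbOn K), x ∈ K :=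
  (rho_ae_iff hKc).2 (ae_restrict_mem hKc.measurableSet)

theorem rho_integral (f : EuclideanSpace ℝ (Fin d) → ℝ) :
    ∫ x, f x ∂(uniformProbOn K) = (volume K).toReal⁻¹ * ∫ x in K, f x := by
  unfold uniformProbOn
  rw [integral_smul_measure, ENNReal.toReal_inv, smul_eq_mul]

theorem setIntegral_eq_rho (hKc : IsCompact K) (hKi : (interior K).Nonempty)
    (f : EuclideanSpace ℝ (Fin d) → ℝ) :
    ∫ x in K, f x = (volume K).toReal * ∫ x, f x ∂(uniformProbOn K) := by
  rw [rho_integral, ← mul_assoc, mul_inv_cancel₀, one_mul]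
  exact (ENNReal.toReal_pos (volK_ne_zero hKi) (volK_ne_top hKc)).ne'

end rho

end Crest.Agent.Helper66.OT
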