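/-
helper66 — row 82 (S0109), package (D): the general limit passage, FINAL module.

`s0109_of_discrete` : the statement of S0109 from the discrete theory (DT) (`DiscreteTheory`)
and the interpolation inequality (A) (`InterpA`).

Route: quantise the targets (`QSeq`), take the canonical discrete potentials/maps of
`μ.map (q n)`; (DT-b) makes the potentials L²-Cauchy with a rate, hence uniformly Cauchy on `K`
(leaf D2), giving a limit potential `phiLim`; (A) at the discrete level makes the maps L²-Cauchy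
with a summable rate, hence a.e. convergent (leaf D4) to a measurable `S'` which is an a.e.
subgradient selection of `phiLim` and pushes `ρ` to `μ` (leaf D3); every optimal map is then an
a.e. subgradient selection of `phiLim` (leaf D1, the only use of `IsOptimalMap`); finally (A)
once more and the limit of (DT-b) along the quantised coupling give the bound (final step).

Leaves: D1 `Helper8/OT/OptSub.lean`, D2 `Helper26/OT/SupFromL2.lean`,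
D3 `Helper71/OT/MapLimit.lean`, D4 `Helper71/OT/AeLimit.lean`, final step
`Helper5/OT/FinalStep.lean`, D6 `Helper66/OT/Coupling.lean`.
-/
import Crest.Agent.Helper66.OT.Disc
import Crest.Agent.Helper66.OT.Quant
import Crest.Agent.Helper66.OT.Coupling
import Crest.Agent.Helper8.OT.OptSub
import Crest.Agent.Helper26.OT.SupFromL2
import Crest.Agent.Helper71.OT.MapLimit
import Crest.Agent.Helper71.OT.AeLimit
import Crest.Agent.Helper5.OT.FinalStep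

set_option autoImplicit false
open MeasureTheory Filter Topology
open scoped ENNReal NNReal
open Crest.AnalysisR.OT

namespace Crest.Agent.Helper66.OT


/-! ### quantiser sequences -/

/-- A quantiser sequence of `Y`: simple functions with values in `Y` moving the points of `Y` by
at most `(1/8)^n / 2`. -/
structure QSeq {d : ℕ} (Y : Set (EuclideanSpace ℝ (Fin d))) where
  q : ℕ → SimpleFunc (EuclideanSpace ℝ (Fin d)) (EuclideanSpace ℝ (Fin d))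
  mem : ∀ n x, q n x ∈ Y
  err : ∀ n, ∀ y ∈ Y, dist (q n y) y ≤ (1 / 8 : ℝ) ^ n / 2

theorem exists_qseq {d : ℕ} {Y : Set (EuclideanSpace ℝ (Fin d))} (hYc : IsCompact Y)
    (hYn : Y.Nonempty) : Nonempty (QSeq Y) := by
  have h : ∀ n : ℕ, ∃ q : SimpleFunc (EuclideanSpace ℝ (Fin d)) (EuclideanSpace ℝ (Fin d)),
      (∀ x, q x ∈ Y) ∧ ∀ y ∈ Y, dist (q y) y ≤ (1 / 8 : ℝ) ^ n / 2 :=
    fun n => exists_quantiser Y hYc hYn _ (by positivity)
  choose q h1 h2 using h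
  exact ⟨⟨q, h1, h2⟩⟩

theorem eps_nonneg (n : ℕ) : 0 ≤ (1 / 8 : ℝ) ^ n / 2 := by positivity

theorem eps_add_le {N n m : ℕ} (hn : N ≤ n) (hm : N ≤ m) :
    (1 / 8 : ℝ) ^ n / 2 + (1 / 8 : ℝ) ^ m / 2 ≤ (1 / 8 : ℝ) ^ N := by
  have h1 : (1 / 8 : ℝ) ^ n ≤ (1 / 8 : ℝ) ^ N :=
    pow_le_pow_of_le_one (by norm_num) (by norm_num) hn
  have h2 : (1 / 8 : ℝ) ^ m ≤ (1 / 8 : ℝ) ^ N :=
    pow_le_pow_of_le_one (by norm_num) (by norm_num) hm
  linarith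

theorem eps_tendsto : Tendsto (fun n : ℕ => (1 / 8 : ℝ) ^ n / 2) atTop (𝓝 0) := by
  have h := tendsto_pow_atTop_nhds_zero_of_lt_one (r := (1 / 8 : ℝ)) (by norm_num) (by norm_num)
  simpa using h.div_const 2

/-! ### elementary facts on subgradient selections -/

section basic
variable {d : ℕ} {K : Set (EuclideanSpace ℝ (Fin d))} {M : ℝ}

theorem lip_of_subgrad {φ : EuclideanSpace ℝ (Fin d) → ℝ}
    {S : EuclideanSpace ℝ (Fin d) → EuclideanSpace ℝ (Fin d)} (hb : ∀ x ∈ K, ‖S x‖ ≤ M)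
    (hs : ∀ x ∈ K, ∀ z ∈ K, φ x + inner ℝ (S x) (z - x) ≤ φ z) :
    ∀ x ∈ K, ∀ z ∈ K, |φ x - φ z| ≤ M * ‖x - z‖ := by
  intro x hx z hz
  have h1 := hs x hx z hz
  have h2 := hs z hz x hx
  have h3 : |inner ℝ (S x) (z - x)| ≤ M * ‖x - z‖ := by
    calc |inner ℝ (S x) (z - x)| ≤ ‖S x‖ * ‖z - x‖ := abs_real_inner_le_norm _ _
      _ ≤ M * ‖z - x‖ := by gcongr; exact hb x hx
      _ = M * ‖x - z‖ := by rw [norm_sub_rev]
  have h4 : |inner ℝ (S z) (x - z)| ≤ M * ‖x - z‖ := by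
    calc |inner ℝ (S z) (x - z)| ≤ ‖S z‖ * ‖x - z‖ := abs_real_inner_le_norm _ _
      _ ≤ M * ‖x - z‖ := by gcongr; exact hb z hz
  have h5 := (abs_le.1 h3).1
  have h6 := (abs_le.1 h4).1
  rw [abs_le]
  constructor <;> linarith

theorem continuousOn_of_lip {φ : EuclideanSpace ℝ (Fin d) → ℝ} {L : ℝ}
    (h : ∀ x ∈ K, ∀ z ∈ K, |φ x - φ z| ≤ L * ‖x - z‖) : ContinuousOn φ K := by
  have hL : LipschitzOnWith (Real.toNNReal L) φ K := by
    refine LipschitzOnWith.of_dist_le_mul ?_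
    intro x hx z hz
    rw [Real.dist_eq, dist_eq_norm]
    refine (h x hx z hz).trans ?_
    gcongr
    exact Real.le_coe_toNNReal L
  exact hL.continuousOn

theorem aesm_rho (hKc : IsCompact K) {f : EuclideanSpace ℝ (Fin d) → ℝ}
    (hf : ContinuousOn f K) : AEStronglyMeasurable f (uniformProbOn K) := by
  unfold uniformProbOn
  exact (hf.aestronglyMeasurable hKc.measurableSet).smul_measure _

theorem ae_map_mem {ρ μ : Measure (EuclideanSpace ℝ (Fin d))}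
    {T : EuclideanSpace ℝ (Fin d) → EuclideanSpace ℝ (Fin d)} (hT : Measurable T)
    (hpush : ρ.map T = μ) {Y : Set (EuclideanSpace ℝ (Fin d))} (hYm : MeasurableSet Y)
    (hμY : μ Yᶜ = 0) : ∀ᵐ x ∂ρ, T x ∈ Y := by
  rw [ae_iff]
  have h1 : {x | ¬ T x ∈ Y} = T ⁻¹' Yᶜ := rfl
  rw [h1, ← Measure.map_apply hT hYm.compl, hpush, hμY]

end basic

/-! ### the discrete approximations -/

section chain
variable {d : ℕ} {K Y : Set (EuclideanSpace ℝ (Fin d))} {M C₁ C_A : ℝ}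
  {pot : Measure (EuclideanSpace ℝ (Fin d)) → EuclideanSpace ℝ (Fin d) → ℝ}
  {lag : Measure (EuclideanSpace ℝ (Fin d)) → EuclideanSpace ℝ (Fin d) →
    EuclideanSpace ℝ (Fin d)}

/-- `n`-th discrete potential of `μ`. -/
noncomputable def phiN (pot : Measure (EuclideanSpace ℝ (Fin d)) → EuclideanSpace ℝ (Fin d) → ℝ)
    (Q : QSeq Y) (μ : Measure (EuclideanSpace ℝ (Fin d))) (n : ℕ) :
    EuclideanSpace ℝ (Fin d) → ℝ :=
  pot (μ.map (Q.q n))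

/-- `n`-th discrete transport map of `μ`. -/
noncomputable def mapN
    (lag : Measure (EuclideanSpace ℝ (Fin d)) → EuclideanSpace ℝ (Fin d) →
      EuclideanSpace ℝ (Fin d))
    (Q : QSeq Y) (μ : Measure (EuclideanSpace ℝ (Fin d))) (n : ℕ) :
    EuclideanSpace ℝ (Fin d) → EuclideanSpace ℝ (Fin d) :=
  lag (μ.map (Q.q n))

/-- The limit potential of `μ` (meaningful on `K`). -/
noncomputable def phiLim
    (pot : Measure (EuclideanSpace ℝ (Fin d)) → EuclideanSpace ℝ (Fin d) → ℝ)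
    (Q : QSeq Y) (μ : Measure (EuclideanSpace ℝ (Fin d))) : EuclideanSpace ℝ (Fin d) → ℝ :=
  fun x => limUnder atTop (fun n => phiN pot Q μ n x)

theorem props_n (hDT : DiscreteTheory K M C₁ pot lag) (hM : ∀ y ∈ Y, ‖y‖ ≤ M) (Q : QSeq Y)
    (μ : Measure (EuclideanSpace ℝ (Fin d))) [IsProbabilityMeasure μ] (n : ℕ) :
    Measurable (mapN lag Q μ n) ∧
      (uniformProbOn K).map (mapN lag Q μ n) = μ.map (Q.q n) ∧
      (∀ x ∈ K, ‖mapN lag Q μ n x‖ ≤ M) ∧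
      (∀ x ∈ K, ∀ z ∈ K,
        phiN pot Q μ n x + inner ℝ (mapN lag Q μ n x) (z - x) ≤ phiN pot Q μ n z) ∧
      ∫ x, phiN pot Q μ n x ∂(uniformProbOn K) = 0 :=
  hDT.simple_props μ (Q.q n) (fun ω => hM _ (Q.mem n ω))

theorem lip_n (hDT : DiscreteTheory K M C₁ pot lag) (hM : ∀ y ∈ Y, ‖y‖ ≤ M) (Q : QSeq Y)
    (μ : Measure (EuclideanSpace ℝ (Fin d))) [IsProbabilityMeasure μ] (n : ℕ) :
    ∀ x ∈ K, ∀ z ∈ K, |phiN pot Q μ n x - phiN pot Q μ n z| ≤ M * ‖x - z‖ :=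
  lip_of_subgrad (props_n hDT hM Q μ n).2.2.1 (props_n hDT hM Q μ n).2.2.2.1

theorem cross_bound (hDT : DiscreteTheory K M C₁ pot lag) (hC₁ : 0 ≤ C₁)
    (hM : ∀ y ∈ Y, ‖y‖ ≤ M) (Q : QSeq Y) (μ : Measure (EuclideanSpace ℝ (Fin d)))
    (hμ : IsProbabilityOn Y μ) (n m : ℕ) :
    ∫ x, (phiN pot Q μ n x - phiN pot Q μ m x) ^ 2 ∂(uniformProbOn K)
      ≤ C₁ * ((1 / 8 : ℝ) ^ n / 2 + (1 / 8 : ℝ) ^ m / 2) ^ 2 := by
  have := hμ.1
  have h1 := hDT.simple_bound μ (SimpleFunc.pair (Q.q n) (Q.q m))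
    (fun ω => ⟨hM _ (Q.mem n ω), hM _ (Q.mem m ω)⟩)
  have h2 := cross_cost_le μ Y hμ.2 (Q.q n) (Q.q m) _ _ (eps_nonneg n) (eps_nonneg m)
    (Q.err n) (Q.err m)
  exact h1.trans (mul_le_mul_of_nonneg_left h2 hC₁)

theorem pair_bound (hDT : DiscreteTheory K M C₁ pot lag) (hC₁ : 0 ≤ C₁)
    (hYm : MeasurableSet Y) (hM : ∀ y ∈ Y, ‖y‖ ≤ M) (Q : QSeq Y)
    (μ ν : Measure (EuclideanSpace ℝ (Fin d))) (hμ : IsProbabilityOn Y μ)
    (hν : IsProbabilityOn Y ν)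
    (π : Measure (EuclideanSpace ℝ (Fin d) × EuclideanSpace ℝ (Fin d)))
    (hπ : IsPairCoupling μ ν π) (n : ℕ) :
    ∫ x, (phiN pot Q μ n x - phiN pot Q ν n x) ^ 2 ∂(uniformProbOn K)
      ≤ C₁ * (∫ p, ‖p.1 - p.2‖ ^ 2 ∂π + 8 * M * ((1 / 8 : ℝ) ^ n / 2)
          + 4 * ((1 / 8 : ℝ) ^ n / 2) ^ 2) := by
  have := hμ.1
  have := coupling_prob μ ν π hπ
  have h1 := hDT.simple_bound π
    (SimpleFunc.pair ((Q.q n).comp Prod.fst measurable_fst)
      ((Q.q n).comp Prod.snd measurable_snd))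
    (fun ω => ⟨hM _ (Q.mem n _), hM _ (Q.mem n _)⟩)
  have e1 : π.map (fun ω => ((SimpleFunc.pair ((Q.q n).comp Prod.fst measurable_fst)
      ((Q.q n).comp Prod.snd measurable_snd)) ω).1) = μ.map (Q.q n) :=
    coupling_map_fst μ ν π hπ (Q.q n) (Q.q n).measurable
  have e2 : π.map (fun ω => ((SimpleFunc.pair ((Q.q n).comp Prod.fst measurable_fst)
      ((Q.q n).comp Prod.snd measurable_snd)) ω).2) = ν.map (Q.q n) :=
    coupling_map_snd μ ν π hπ (Q.q n) (Q.q n).measurable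
  rw [e1, e2] at h1
  have h2 := pair_cost_le Y hYm M hM μ ν hμ.2 hν.2 π hπ (Q.q n) _ (eps_nonneg n) (Q.err n)
  exact h1.trans (mul_le_mul_of_nonneg_left h2 hC₁)

theorem sup_cauchy (hKc : IsCompact K) (hKv : Convex ℝ K) (hKi : (interior K).Nonempty)
    (hDT : DiscreteTheory K M C₁ pot lag) (hC₁ : 0 ≤ C₁) (hM : ∀ y ∈ Y, ‖y‖ ≤ M)
    (hM0 : 0 ≤ M) (Q : QSeq Y) (μ : Measure (EuclideanSpace ℝ (Fin d)))
    (hμ : IsProbabilityOn Y μ) (η : ℝ) (hη : 0 < η) :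
    ∃ N, ∀ n, N ≤ n → ∀ m, N ≤ m → ∀ x ∈ K,
      |phiN pot Q μ n x - phiN pot Q μ m x| < η := by
  have := hμ.1
  obtain ⟨δ, hδ, hD2⟩ :=
    lipschitz_sup_lt_of_sq_integral_lt K hKc hKv hKi (2 * M + 1) (by linarith) η hη
  have ht : Tendsto (fun N : ℕ => C₁ * ((1 / 8 : ℝ) ^ N) ^ 2) atTop (𝓝 0) := by
    have h8 := tendsto_pow_atTop_nhds_zero_of_lt_one (r := (1 / 8 : ℝ)) (by norm_num)
      (by norm_num)
    simpa using (h8.pow 2).const_mul C₁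
  obtain ⟨N, hN⟩ := (ht.eventually (gt_mem_nhds hδ)).exists
  refine ⟨N, fun n hn m hm x hx => ?_⟩
  have hl := lip_n hDT hM Q μ n
  have hl' := lip_n hDT hM Q μ m
  refine hD2 (fun x => phiN pot Q μ n x - phiN pot Q μ m x) ?_ ?_ x hx
  · intro x hx z hz
    have e1 := hl x hx z hz
    have e2 := hl' x hx z hz
    calc |phiN pot Q μ n x - phiN pot Q μ m x - (phiN pot Q μ n z - phiN pot Q μ m z)|
        = |(phiN pot Q μ n x - phiN pot Q μ n z) - (phiN pot Q μ m x - phiN pot Q μ m z)| := by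
          ring_nf
      _ ≤ |phiN pot Q μ n x - phiN pot Q μ n z| + |phiN pot Q μ m x - phiN pot Q μ m z| :=
          abs_sub _ _
      _ ≤ M * ‖x - z‖ + M * ‖x - z‖ := add_le_add e1 e2
      _ ≤ (2 * M + 1) * ‖x - z‖ := by nlinarith [norm_nonneg (x - z)]
  · calc ∫ x, (phiN pot Q μ n x - phiN pot Q μ m x) ^ 2 ∂(uniformProbOn K)
        ≤ C₁ * ((1 / 8 : ℝ) ^ n / 2 + (1 / 8 : ℝ) ^ m / 2) ^ 2 :=
          cross_bound hDT hC₁ hM Q μ hμ n m
      _ ≤ C₁ * ((1 / 8 : ℝ) ^ N) ^ 2 := by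
          have h0 : 0 ≤ (1 / 8 : ℝ) ^ n / 2 + (1 / 8 : ℝ) ^ m / 2 :=
            add_nonneg (eps_nonneg n) (eps_nonneg m)
          have h1 := eps_add_le hn hm
          gcongr
      _ < δ := hN

theorem tendsto_phiLim (hKc : IsCompact K) (hKv : Convex ℝ K) (hKi : (interior K).Nonempty)
    (hDT : DiscreteTheory K M C₁ pot lag) (hC₁ : 0 ≤ C₁) (hM : ∀ y ∈ Y, ‖y‖ ≤ M)
    (hM0 : 0 ≤ M) (Q : QSeq Y) (μ : Measure (EuclideanSpace ℝ (Fin d)))
    (hμ : IsProbabilityOn Y μ) :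
    ∀ x ∈ K, Tendsto (fun n => phiN pot Q μ n x) atTop (𝓝 (phiLim pot Q μ x)) := by
  intro x hx
  have hc : CauchySeq (fun n => phiN pot Q μ n x) := by
    rw [Metric.cauchySeq_iff]
    intro η hη
    obtain ⟨N, hN⟩ := sup_cauchy hKc hKv hKi hDT hC₁ hM hM0 Q μ hμ η hη
    exact ⟨N, fun m hm n hn => by rw [Real.dist_eq]; exact hN m hm n hn x hx⟩
  exact hc.tendsto_limUnder

theorem unif_phiLim (hKc : IsCompact K) (hKv : Convex ℝ K) (hKi : (interior K).Nonempty)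
    (hDT : DiscreteTheory K M C₁ pot lag) (hC₁ : 0 ≤ C₁) (hM : ∀ y ∈ Y, ‖y‖ ≤ M)
    (hM0 : 0 ≤ M) (Q : QSeq Y) (μ : Measure (EuclideanSpace ℝ (Fin d)))
    (hμ : IsProbabilityOn Y μ) (η : ℝ) (hη : 0 < η) :
    ∃ N, ∀ n, N ≤ n → ∀ x ∈ K, |phiN pot Q μ n x - phiLim pot Q μ x| ≤ η := by
  obtain ⟨N, hN⟩ := sup_cauchy hKc hKv hKi hDT hC₁ hM hM0 Q μ hμ η hη
  refine ⟨N, fun n hn x hx => ?_⟩
  have ht := tendsto_phiLim hKc hKv hKi hDT hC₁ hM hM0 Q μ hμ x hx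
  have h1 : Tendsto (fun m => |phiN pot Q μ n x - phiN pot Q μ m x|) atTop
      (𝓝 |phiN pot Q μ n x - phiLim pot Q μ x|) := (tendsto_const_nhds.sub ht).abs
  exact le_of_tendsto h1 (eventually_atTop.2 ⟨N, fun m hm => (hN n hn m hm x hx).le⟩)

theorem lip_phiLim (hKc : IsCompact K) (hKv : Convex ℝ K) (hKi : (interior K).Nonempty)
    (hDT : DiscreteTheory K M C₁ pot lag) (hC₁ : 0 ≤ C₁) (hM : ∀ y ∈ Y, ‖y‖ ≤ M)
    (hM0 : 0 ≤ M) (Q : QSeq Y) (μ : Measure (EuclideanSpace ℝ (Fin d)))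
    (hμ : IsProbabilityOn Y μ) :
    ∀ x ∈ K, ∀ z ∈ K, |phiLim pot Q μ x - phiLim pot Q μ z| ≤ M * ‖x - z‖ := by
  have := hμ.1
  intro x hx z hz
  have h1 := tendsto_phiLim hKc hKv hKi hDT hC₁ hM hM0 Q μ hμ x hx
  have h2 := tendsto_phiLim hKc hKv hKi hDT hC₁ hM hM0 Q μ hμ z hz
  have h3 : Tendsto (fun n => |phiN pot Q μ n x - phiN pot Q μ n z|) atTop
      (𝓝 |phiLim pot Q μ x - phiLim pot Q μ z|) := (h1.sub h2).abs
  exact le_of_tendsto' h3 (fun n => lip_n hDT hM Q μ n x hx z hz)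

/-- The constant in the L² rate of the discrete maps. -/
noncomputable def rateConst (K : Set (EuclideanSpace ℝ (Fin d))) (C₁ C_A : ℝ) : ℝ :=
  (volume K).toReal⁻¹ * (C_A * ((volume K).toReal * C₁) ^ (1 / 3 : ℝ))

theorem rateConst_nonneg (hC₁ : 0 ≤ C₁) (hCA : 0 ≤ C_A) : 0 ≤ rateConst K C₁ C_A := by
  unfold rateConst
  have h1 : 0 ≤ ((volume K).toReal * C₁) ^ (1 / 3 : ℝ) :=
    Real.rpow_nonneg (mul_nonneg ENNReal.toReal_nonneg hC₁) _
  positivity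

theorem map_rate (hKc : IsCompact K) (hKi : (interior K).Nonempty)
    (hA : InterpA K M C_A) (hCA : 0 ≤ C_A)
    (hDT : DiscreteTheory K M C₁ pot lag) (hC₁ : 0 ≤ C₁) (hM : ∀ y ∈ Y, ‖y‖ ≤ M)
    (Q : QSeq Y) (μ : Measure (EuclideanSpace ℝ (Fin d)))
    (hμ : IsProbabilityOn Y μ) (N n m : ℕ) (hn : N ≤ n) (hm : N ≤ m) :
    ∫ x, ‖mapN lag Q μ n x - mapN lag Q μ m x‖ ^ 2 ∂(uniformProbOn K)
      ≤ rateConst K C₁ C_A * (1 / 4 : ℝ) ^ N := by
  have := hμ.1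
  have hvpos : 0 < (volume K).toReal :=
    ENNReal.toReal_pos (volK_ne_zero hKi) (volK_ne_top hKc)
  have hp := props_n hDT hM Q μ n
  have hp' := props_n hDT hM Q μ m
  have hl := lip_n hDT hM Q μ n
  have hl' := lip_n hDT hM Q μ m
  have h1 := hA (phiN pot Q μ n) (phiN pot Q μ m) (mapN lag Q μ n) (mapN lag Q μ m)
    (continuousOn_of_lip hl) (continuousOn_of_lip hl') hp.1 hp'.1
    (ae_restrict_of_forall_mem hKc.measurableSet hp.2.2.1)
    (ae_restrict_of_forall_mem hKc.measurableSet hp'.2.2.1)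
    (ae_restrict_of_forall_mem hKc.measurableSet hp.2.2.2.1)
    (ae_restrict_of_forall_mem hKc.measurableSet hp'.2.2.2.1)
  have h2 : ∫ x in K, (phiN pot Q μ n x - phiN pot Q μ m x) ^ 2
      ≤ ((volume K).toReal * C₁) * ((1 / 4 : ℝ) ^ N) ^ 3 := by
    rw [setIntegral_eq_rho hKc hKi, mul_assoc]
    refine mul_le_mul_of_nonneg_left ?_ hvpos.le
    calc ∫ x, (phiN pot Q μ n x - phiN pot Q μ m x) ^ 2 ∂(uniformProbOn K)
        ≤ C₁ * ((1 / 8 : ℝ) ^ n / 2 + (1 / 8 : ℝ) ^ m / 2) ^ 2 :=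
          cross_bound hDT hC₁ hM Q μ hμ n m
      _ ≤ C₁ * ((1 / 8 : ℝ) ^ N) ^ 2 := by
          have h0 : 0 ≤ (1 / 8 : ℝ) ^ n / 2 + (1 / 8 : ℝ) ^ m / 2 :=
            add_nonneg (eps_nonneg n) (eps_nonneg m)
          have h1 := eps_add_le hn hm
          gcongr
      _ = C₁ * ((1 / 4 : ℝ) ^ N) ^ 3 := by
          rw [← pow_mul, ← pow_mul, mul_comm N 2, mul_comm N 3, pow_mul, pow_mul]
          norm_num
  have h3 : (∫ x in K, (phiN pot Q μ n x - phiN pot Q μ m x) ^ 2) ^ (1 / 3 : ℝ)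
      ≤ ((volume K).toReal * C₁) ^ (1 / 3 : ℝ) * (1 / 4 : ℝ) ^ N := by
    calc (∫ x in K, (phiN pot Q μ n x - phiN pot Q μ m x) ^ 2) ^ (1 / 3 : ℝ)
        ≤ (((volume K).toReal * C₁) * ((1 / 4 : ℝ) ^ N) ^ 3) ^ (1 / 3 : ℝ) :=
          Real.rpow_le_rpow (integral_nonneg (fun x => sq_nonneg _)) h2 (by norm_num)
      _ = ((volume K).toReal * C₁) ^ (1 / 3 : ℝ) * (((1 / 4 : ℝ) ^ N) ^ 3) ^ (1 / 3 : ℝ) :=
          Real.mul_rpow (mul_nonneg hvpos.le hC₁) (by positivity)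
      _ = ((volume K).toReal * C₁) ^ (1 / 3 : ℝ) * (1 / 4 : ℝ) ^ N := by
          congr 1
          have h4 := Real.pow_rpow_inv_natCast (x := (1 / 4 : ℝ) ^ N) (by positivity)
            (n := 3) (by norm_num)
          rw [← h4]
          congr 1
          · rw [h4]
          · norm_num
  rw [rho_integral]
  unfold rateConst
  calc (volume K).toReal⁻¹ * ∫ x in K, ‖mapN lag Q μ n x - mapN lag Q μ m x‖ ^ 2
      ≤ (volume K).toReal⁻¹ *
          (C_A * (((volume K).toReal * C₁) ^ (1 / 3 : ℝ) * (1 / 4 : ℝ) ^ N)) := by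
        refine mul_le_mul_of_nonneg_left ?_ (inv_nonneg.2 hvpos.le)
        exact h1.trans (mul_le_mul_of_nonneg_left h3 hCA)
    _ = (volume K).toReal⁻¹ * (C_A * ((volume K).toReal * C₁) ^ (1 / 3 : ℝ))
          * (1 / 4 : ℝ) ^ N := by ring

theorem exists_map_limit (hKc : IsCompact K) (hKi : (interior K).Nonempty)
    (hA : InterpA K M C_A) (hCA : 0 ≤ C_A)
    (hDT : DiscreteTheory K M C₁ pot lag) (hC₁ : 0 ≤ C₁) (hM : ∀ y ∈ Y, ‖y‖ ≤ M)
    (Q : QSeq Y) (μ : Measure (EuclideanSpace ℝ (Fin d)))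
    (hμ : IsProbabilityOn Y μ) :
    ∃ S' : EuclideanSpace ℝ (Fin d) → EuclideanSpace ℝ (Fin d), Measurable S' ∧
      ∀ᵐ x ∂(uniformProbOn K), Tendsto (fun n => mapN lag Q μ n x) atTop (𝓝 (S' x)) := by
  have := rho_prob hKc hKi
  have := hμ.1
  exact exists_ae_limit_of_sq_rate (uniformProbOn K) (mapN lag Q μ)
    (fun n => (props_n hDT hM Q μ n).1) M
    (fun n => (rho_ae_mem hKc).mono (fun x hx => (props_n hDT hM Q μ n).2.2.1 x hx))
    (rateConst K C₁ C_A) (rateConst_nonneg hC₁ hCA)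
    (fun N n m hn hm => map_rate hKc hKi hA hCA hDT hC₁ hM Q μ hμ N n m hn hm)

theorem sub_limit (hKc : IsCompact K) (hKv : Convex ℝ K) (hKi : (interior K).Nonempty)
    (hDT : DiscreteTheory K M C₁ pot lag) (hC₁ : 0 ≤ C₁) (hM : ∀ y ∈ Y, ‖y‖ ≤ M)
    (hM0 : 0 ≤ M) (Q : QSeq Y) (μ : Measure (EuclideanSpace ℝ (Fin d)))
    (hμ : IsProbabilityOn Y μ)
    (S' : EuclideanSpace ℝ (Fin d) → EuclideanSpace ℝ (Fin d))
    (hlim : ∀ᵐ x ∂(uniformProbOn K), Tendsto (fun n => mapN lag Q μ n x) atTop (𝓝 (S' x))) :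
    ∀ᵐ x ∂(uniformProbOn K), ∀ z ∈ K,
      phiLim pot Q μ x + inner ℝ (S' x) (z - x) ≤ phiLim pot Q μ z := by
  have := hμ.1
  filter_upwards [rho_ae_mem hKc, hlim] with x hx hxl z hz
  have h1 := tendsto_phiLim hKc hKv hKi hDT hC₁ hM hM0 Q μ hμ x hx
  have h2 := tendsto_phiLim hKc hKv hKi hDT hC₁ hM hM0 Q μ hμ z hz
  have h3 : Tendsto (fun n => phiN pot Q μ n x + inner ℝ (mapN lag Q μ n x) (z - x)) atTop
      (𝓝 (phiLim pot Q μ x + inner ℝ (S' x) (z - x))) :=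
    h1.add (hxl.inner tendsto_const_nhds)
  exact le_of_tendsto_of_tendsto' h3 h2 (fun n => (props_n hDT hM Q μ n).2.2.2.1 x hx z hz)

theorem push_limit (hKc : IsCompact K) (hKi : (interior K).Nonempty)
    (hDT : DiscreteTheory K M C₁ pot lag) (hM : ∀ y ∈ Y, ‖y‖ ≤ M)
    (Q : QSeq Y) (μ : Measure (EuclideanSpace ℝ (Fin d)))
    (hμ : IsProbabilityOn Y μ)
    (S' : EuclideanSpace ℝ (Fin d) → EuclideanSpace ℝ (Fin d)) (hS' : Measurable S')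
    (hlim : ∀ᵐ x ∂(uniformProbOn K), Tendsto (fun n => mapN lag Q μ n x) atTop (𝓝 (S' x))) :
    (uniformProbOn K).map S' = μ := by
  have := rho_prob hKc hKi
  have := hμ.1
  exact map_limit_eq (uniformProbOn K) μ Y hμ.2 (fun n => Q.q n)
    (fun n => (Q.q n).measurable) (fun n => (1 / 8 : ℝ) ^ n / 2) eps_tendsto
    (fun n => Q.err n) (mapN lag Q μ) (fun n => (props_n hDT hM Q μ n).1)
    (fun n => (props_n hDT hM Q μ n).2.1) S' hS' hlim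

/-- Every optimal map to `μ` is an a.e. subgradient selection of the limit potential. -/
theorem optimal_sub (hKc : IsCompact K) (hKv : Convex ℝ K) (hKi : (interior K).Nonempty)
    (hYc : IsCompact Y) (hA : InterpA K M C_A) (hCA : 0 ≤ C_A)
    (hDT : DiscreteTheory K M C₁ pot lag) (hC₁ : 0 ≤ C₁) (hM : ∀ y ∈ Y, ‖y‖ ≤ M)
    (hM0 : 0 ≤ M) (Q : QSeq Y) (μ : Measure (EuclideanSpace ℝ (Fin d)))
    (hμ : IsProbabilityOn Y μ)
    (T : EuclideanSpace ℝ (Fin d) → EuclideanSpace ℝ (Fin d))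
    (hT : IsOptimalMap (uniformProbOn K) μ T) :
    ∀ᵐ x ∂(uniformProbOn K), ∀ z ∈ K,
      phiLim pot Q μ x + inner ℝ (T x) (z - x) ≤ phiLim pot Q μ z := by
  obtain ⟨S', hS', hlim⟩ := exists_map_limit hKc hKi hA hCA hDT hC₁ hM Q μ hμ
  exact optimal_is_subgradient K hKc hKv hKi Y hYc μ hμ (phiLim pot Q μ)
    (continuousOn_of_lip (lip_phiLim hKc hKv hKi hDT hC₁ hM hM0 Q μ hμ)) S' T hS'
    (push_limit hKc hKi hDT hM Q μ hμ S' hS' hlim)
    (sub_limit hKc hKv hKi hDT hC₁ hM hM0 Q μ hμ S' hlim) hT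

theorem pair_limit (hKc : IsCompact K) (hKv : Convex ℝ K) (hKi : (interior K).Nonempty)
    (hYc : IsCompact Y)
    (hDT : DiscreteTheory K M C₁ pot lag) (hC₁ : 0 ≤ C₁) (hM : ∀ y ∈ Y, ‖y‖ ≤ M)
    (hM0 : 0 ≤ M) (Q : QSeq Y) (μ ν : Measure (EuclideanSpace ℝ (Fin d)))
    (hμ : IsProbabilityOn Y μ) (hν : IsProbabilityOn Y ν)
    (π : Measure (EuclideanSpace ℝ (Fin d) × EuclideanSpace ℝ (Fin d)))
    (hπ : IsPairCoupling μ ν π) :
    ∫ x, (phiLim pot Q μ x - phiLim pot Q ν x) ^ 2 ∂(uniformProbOn K)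
      ≤ C₁ * ∫ p, ‖p.1 - p.2‖ ^ 2 ∂π := by
  have := rho_prob hKc hKi
  have := hμ.1
  have := hν.1
  obtain ⟨B₁, hB₁⟩ := hKc.exists_bound_of_continuousOn
    (continuousOn_of_lip (lip_phiLim hKc hKv hKi hDT hC₁ hM hM0 Q μ hμ))
  obtain ⟨B₂, hB₂⟩ := hKc.exists_bound_of_continuousOn
    (continuousOn_of_lip (lip_phiLim hKc hKv hKi hDT hC₁ hM hM0 Q ν hν))
  obtain ⟨N₁, hN₁⟩ := unif_phiLim hKc hKv hKi hDT hC₁ hM hM0 Q μ hμ 1 one_pos
  obtain ⟨N₂, hN₂⟩ := unif_phiLim hKc hKv hKi hDT hC₁ hM hM0 Q ν hν 1 one_pos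
  have hF : Tendsto
      (fun n => ∫ x, (phiN pot Q μ n x - phiN pot Q ν n x) ^ 2 ∂(uniformProbOn K)) atTop
      (𝓝 (∫ x, (phiLim pot Q μ x - phiLim pot Q ν x) ^ 2 ∂(uniformProbOn K))) := by
    refine tendsto_integral_filter_of_dominated_convergence (fun _ => (B₁ + B₂ + 2) ^ 2)
      ?_ ?_ (integrable_const _) ?_
    · refine Eventually.of_forall (fun n => ?_)
      exact aesm_rho hKc (((continuousOn_of_lip (lip_n hDT hM Q μ n)).sub
        (continuousOn_of_lip (lip_n hDT hM Q ν n))).pow 2)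
    · refine eventually_atTop.2 ⟨max N₁ N₂, fun n hn => ?_⟩
      filter_upwards [rho_ae_mem hKc] with x hx
      have h1 := abs_le.1 (hN₁ n (le_of_max_le_left hn) x hx)
      have h2 := abs_le.1 (hN₂ n (le_of_max_le_right hn) x hx)
      have h3 := hB₁ x hx
      have h4 := hB₂ x hx
      rw [Real.norm_eq_abs] at h3 h4 ⊢
      have h3' := abs_le.1 h3
      have h4' := abs_le.1 h4
      rw [abs_pow]
      have h5 : |phiN pot Q μ n x - phiN pot Q ν n x| ≤ B₁ + B₂ + 2 := by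
        rw [abs_le]
        constructor <;> linarith [h1.1, h1.2, h2.1, h2.2, h3'.1, h3'.2, h4'.1, h4'.2]
      exact pow_le_pow_left₀ (abs_nonneg _) h5 2
    · filter_upwards [rho_ae_mem hKc] with x hx
      exact ((tendsto_phiLim hKc hKv hKi hDT hC₁ hM hM0 Q μ hμ x hx).sub
        (tendsto_phiLim hKc hKv hKi hDT hC₁ hM hM0 Q ν hν x hx)).pow 2
  have hG : Tendsto (fun n : ℕ => C₁ * (∫ p, ‖p.1 - p.2‖ ^ 2 ∂π
      + 8 * M * ((1 / 8 : ℝ) ^ n / 2) + 4 * ((1 / 8 : ℝ) ^ n / 2) ^ 2)) atTop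
      (𝓝 (C₁ * ∫ p, ‖p.1 - p.2‖ ^ 2 ∂π)) := by
    have h0 := eps_tendsto
    have h1 := ((tendsto_const_nhds (x := ∫ p, ‖p.1 - p.2‖ ^ 2 ∂π)).add
      (h0.const_mul (8 * M))).add ((h0.pow 2).const_mul 4)
    simpa using h1.const_mul C₁
  exact le_of_tendsto_of_tendsto' hF hG
    (fun n => pair_bound hDT hC₁ hYc.measurableSet hM Q μ ν hμ hν π hπ n)

end chain

/-! ### the theorem -/

/-- **S0109 from (DT) and (A).** -/
theorem s0109_of_discrete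
    (d : ℕ) (K : Set (EuclideanSpace ℝ (Fin d))) (hKc : IsCompact K) (hKv : Convex ℝ K)
    (hKi : (interior K).Nonempty) (Y : Set (EuclideanSpace ℝ (Fin d))) (hYc : IsCompact Y)
    (hYn : Y.Nonempty)
    (hA : ∀ M : ℝ, 0 ≤ M → ∃ C : ℝ, 0 ≤ C ∧ InterpA K M C)
    (hDT : ∀ M : ℝ, 0 ≤ M → ∃ C₁ : ℝ, 0 ≤ C₁ ∧ ∃ pot lag, DiscreteTheory K M C₁ pot lag) :
    ∃ C : ℝ≥0, ∀ μ ν : Measure (EuclideanSpace ℝ (Fin d)), IsProbabilityOn Y μ →
      IsProbabilityOn Y ν →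
      ∀ Tμ Tν : EuclideanSpace ℝ (Fin d) → EuclideanSpace ℝ (Fin d),
        IsOptimalMap (uniformProbOn K) μ Tμ → IsOptimalMap (uniformProbOn K) ν Tν →
        ∀ π : Measure (EuclideanSpace ℝ (Fin d) × EuclideanSpace ℝ (Fin d)),
          IsPairCoupling μ ν π →
          ∫⁻ x, ‖Tμ x - Tν x‖ₑ ^ 2 ∂(uniformProbOn K) ≤ C * quadCost π ^ (1 / 3 : ℝ) := by
  obtain ⟨M, hM⟩ := hYc.isBounded.exists_norm_le
  have hM0 : 0 ≤ M := (norm_nonneg _).trans (hM _ hYn.some_mem)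
  obtain ⟨C_A, hCA, hA'⟩ := hA M hM0
  obtain ⟨C₁, hC₁, pot, lag, hDT'⟩ := hDT M hM0
  obtain ⟨Q⟩ := exists_qseq hYc hYn
  refine ⟨Real.toNNReal (C_A * ((volume K).toReal) ^ (-(2 / 3 : ℝ)) * C₁ ^ (1 / 3 : ℝ)), ?_⟩
  intro μ ν hμ hν Tμ Tν hTμ hTν π hπ
  have h2 := pair_limit hKc hKv hKi hYc hDT' hC₁ hM hM0 Q μ ν hμ hν π hπ
  rw [integral_sq_eq_quadCost_toReal] at h2
  exact final_step_nnreal K hKc hKi Y hYc M hM C_A hCA hA' C₁ hC₁ μ ν hμ hν Tμ Tν hTμ.1 hTν.1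
    hTμ.2.1 hTν.2.1 (phiLim pot Q μ) (phiLim pot Q ν)
    (continuousOn_of_lip (lip_phiLim hKc hKv hKi hDT' hC₁ hM hM0 Q μ hμ))
    (continuousOn_of_lip (lip_phiLim hKc hKv hKi hDT' hC₁ hM hM0 Q ν hν))
    (optimal_sub hKc hKv hKi hYc hA' hCA hDT' hC₁ hM hM0 Q μ hμ Tμ hTμ)
    (optimal_sub hKc hKv hKi hYc hA' hCA hDT' hC₁ hM hM0 Q ν hν Tν hTν) π hπ h2

end Crest.Agent.Helper66.OT
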